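import Vale.Agent.P126.AL6

/-!
P126 (duality conjecture for metric entropy): near-linear, dimension-free duality.
-/

namespace Vale.Agent.Results.P126.AlmostLinearDuality

open scoped Pointwise
open Vale.Agent.P126

theorem result :
    (∀ ε : ℝ, 0 < ε → ∃ a b : ℝ, 1 ≤ a ∧ 1 ≤ b ∧ ∀ n : ℕ, 1 ≤ n → ∀ K L : Set (E n),
      IsSymBody K → IsSymBody L →
        Real.log (coverNum (polar L) (a • polar K)) ≤
          b * (Real.log (coverNum K L)) ^ (1 + ε) ∧
        Real.log (coverNum K L) ≤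
          b * (Real.log (coverNum (polar L) (a⁻¹ • polar K))) ^ (1 + ε)) ∧
    ∃ C : ℝ, 1 ≤ C ∧ ∀ n : ℕ, 1 ≤ n → ∀ K L : Set (E n), IsSymBody K → IsSymBody L →
      (∀ J : ℕ, 1 ≤ J →
        Real.log (coverNum (polar L) ((C * J) • polar K)) ≤
          C * J * (Real.log (coverNum K L)) ^ (1 + 1 / (J : ℝ)) ∧
        Real.log (coverNum K L) ≤
          C * J * (Real.log (coverNum (polar L) ((C * J)⁻¹ • polar K))) ^ (1 + 1 / (J : ℝ))) ∧
      ∀ a : ℝ, a = C * (1 + Real.log (1 + Real.log (coverNum K L))) →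
        Real.log (coverNum (polar L) (a • polar K)) ≤ a * Real.log (coverNum K L) ∧
        Real.log (coverNum K L) ≤ a * Real.log (coverNum (polar L) (a⁻¹ • polar K)) := by
  refine ⟨AL.eps_form, 2 ^ 50, by norm_num, fun n _ K L hK hL => ⟨fun J hJ => ?_, fun a ha => ?_⟩⟩
  · have hJR : (1 : ℝ) ≤ J := by exact_mod_cast hJ
    have ha : 1024 * ((J : ℝ) + 1) ≤ 2 ^ 50 * J := by linarith
    have h1 := AL.lower hJ ha K L hK hL
    have h2 := AL.upper hJ ha K L hK hL
    have e1 : (0 : ℝ) ≤ (Real.log (coverNum K L)) ^ (1 + 1 / (J : ℝ)) :=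
      Real.rpow_nonneg (Real.log_natCast_nonneg _) _
    have e2 : (0 : ℝ) ≤ (Real.log (coverNum (polar L) ((2 ^ 50 * (J : ℝ))⁻¹ • polar K))) ^
        (1 + 1 / (J : ℝ)) := Real.rpow_nonneg (Real.log_natCast_nonneg _) _
    constructor
    · refine h1.trans (mul_le_mul_of_nonneg_right ?_ e1)
      gcongr <;> norm_num
    · refine h2.trans (mul_le_mul_of_nonneg_right ?_ e2)
      gcongr <;> norm_num
  · exact AL.loglog K L hK hL ha

end Vale.Agent.Results.P126.AlmostLinearDuality
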