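import Vale.Agent.P126.AL7

/-!
P126 (duality conjecture for metric entropy): near-linear duality; the loss involves only
`min (n, log N)`.
-/

namespace Vale.Agent.Results.P126.AlmostLinearMin

open scoped Pointwise
open Vale.Agent.P126

theorem result :
    (∀ ε : ℝ, 0 < ε → ∃ a b : ℝ, 1 ≤ a ∧ 1 ≤ b ∧ ∀ n : ℕ, 1 ≤ n → ∀ K L : Set (E n),
      IsSymBody K → IsSymBody L →
        Real.log (coverNum (polar L) (a • polar K)) ≤
          b * (Real.log (coverNum K L)) ^ (1 + ε) ∧
        Real.log (coverNum K L) ≤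
          b * (Real.log (coverNum (polar L) (a⁻¹ • polar K))) ^ (1 + ε)) ∧
    ∃ C : ℝ, 1 ≤ C ∧ ∀ n : ℕ, 1 ≤ n → ∀ K L : Set (E n), IsSymBody K → IsSymBody L →
      (∀ J : ℕ, 1 ≤ J → ∀ a : ℝ, C * J ≤ a →
        Real.log (coverNum (polar L) (a • polar K)) ≤
          C * J * (min (n : ℝ) (Real.log (coverNum K L))) ^ (1 / (J : ℝ)) *
            Real.log (coverNum K L) ∧
        Real.log (coverNum K L) ≤
          C * J * (min (n : ℝ) (Real.log (coverNum (polar L) (a⁻¹ • polar K)))) ^ (1 / (J : ℝ)) *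
            Real.log (coverNum (polar L) (a⁻¹ • polar K))) ∧
      ∀ a : ℝ, a = C * (1 + Real.log (1 + min (n : ℝ) (Real.log (coverNum K L)))) →
        Real.log (coverNum (polar L) (a • polar K)) ≤ a * Real.log (coverNum K L) ∧
        Real.log (coverNum K L) ≤ a * Real.log (coverNum (polar L) (a⁻¹ • polar K)) := by
  refine ⟨AL.eps_form, 2 ^ 50, by norm_num,
    fun n hn K L hK hL => ⟨fun J hJ a haJ => ?_, fun a ha => ?_⟩⟩
  · have hJR : (1 : ℝ) ≤ J := by exact_mod_cast hJ
    have ha : 1024 * ((J : ℝ) + 1) ≤ a := by linarith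
    have h1 := AL.lower_min hn hJ ha K L hK hL
    have h2 := AL.upper_min hn hJ ha K L hK hL
    have e1 : (0 : ℝ) ≤ Real.log (coverNum K L) := Real.log_natCast_nonneg _
    have e2 : (0 : ℝ) ≤ Real.log (coverNum (polar L) (a⁻¹ • polar K)) :=
      Real.log_natCast_nonneg _
    have e3 : (0 : ℝ) ≤ (min (n : ℝ) (Real.log (coverNum K L))) ^ (1 / (J : ℝ)) :=
      Real.rpow_nonneg (le_min (by positivity) e1) _
    have e4 : (0 : ℝ) ≤ (min (n : ℝ) (Real.log (coverNum (polar L) (a⁻¹ • polar K)))) ^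
        (1 / (J : ℝ)) := Real.rpow_nonneg (le_min (by positivity) e2) _
    constructor
    · refine h1.trans (mul_le_mul_of_nonneg_right (mul_le_mul_of_nonneg_right ?_ e3) e1)
      gcongr <;> norm_num
    · refine h2.trans (mul_le_mul_of_nonneg_right (mul_le_mul_of_nonneg_right ?_ e4) e2)
      gcongr <;> norm_num
  · exact AL.loglog_min hn K L hK hL ha

end Vale.Agent.Results.P126.AlmostLinearMin
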