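import Vale.Agent.P126.NLBodies

/-!
P126 (duality conjecture for metric entropy): dimension-free duality of metric entropy for
arbitrary pairs of symmetric convex bodies, up to an arbitrarily small power of the logarithm of
the covering number.
-/

namespace Vale.Agent.Results.P126.NearLinearDuality

open scoped Pointwise
open Vale.Agent.P126

theorem result : ∀ ε : ℝ, 0 < ε → ∃ a b : ℝ, 1 ≤ a ∧ 1 ≤ b ∧ ∀ n : ℕ, 1 ≤ n →
    ∀ K L : Set (E n), IsSymBody K → IsSymBody L →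
      Real.log (coverNum (polar L) (a • polar K)) ≤
        b * (Real.log (coverNum K L)) ^ (1 + ε) ∧
      Real.log (coverNum K L) ≤
        b * (Real.log (coverNum (polar L) (a⁻¹ • polar K))) ^ (1 + ε) := by
  intro ε hε
  obtain ⟨f, hf⟩ := exists_nat_gt (1 / ε)
  have hf0 : (0 : ℝ) < f := lt_trans (by positivity) hf
  have hf1 : 1 ≤ f := by exact_mod_cast hf0
  have hfR : (1 : ℝ) ≤ f := by exact_mod_cast hf1
  have hfε : 1 / (f : ℝ) ≤ ε := by
    rw [div_le_iff₀ hf0]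
    rw [div_lt_iff₀ hε] at hf
    linarith
  have ha : 64 * ((2 * f + 4 : ℕ) : ℝ) ≤ 2 ^ 31 * f := by
    push_cast
    linarith
  have h5 : (1 : ℝ) ≤ (f : ℝ) ^ 5 := one_le_pow₀ hfR
  have h2 : (1 : ℝ) ≤ (2 : ℝ) ^ (1 + ε) := Real.one_le_rpow (by norm_num) (by positivity)
  refine ⟨2 ^ 31 * f, 2 ^ 31 * f ^ 5 * 2 ^ (1 + ε), by linarith, ?_, fun n _ K L hK hL =>
    ⟨?_, ?_⟩⟩
  · have : (1 : ℝ) ≤ 2 ^ 31 * f ^ 5 := by linarith
    exact one_le_mul_of_one_le_of_one_le this h2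
  · refine (NL.lower hf1 ha K L hK hL).trans ?_
    rw [mul_assoc (2 ^ 31 * (f : ℝ) ^ 5)]
    exact mul_le_mul_of_nonneg_left (NL.rpow_compare hf1 hfε _) (by positivity)
  · refine (NL.upper hf1 ha K L hK hL).trans ?_
    rw [mul_assoc (2 ^ 31 * (f : ℝ) ^ 5)]
    exact mul_le_mul_of_nonneg_left (NL.rpow_compare hf1 hfε _) (by positivity)

end Vale.Agent.Results.P126.NearLinearDuality
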