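import Vale.Agent.P126.NLBodies

/-!
P126 (duality conjecture for metric entropy): dimension-free duality with exponent `1 + 1/f` at
scale `C f`, with a factor `C f ^ 5`, uniformly in the integer parameter `f ≥ 1`.
-/

namespace Vale.Agent.Results.P126.NearLinearUniform

open scoped Pointwise
open Vale.Agent.P126

theorem result : ∃ C : ℝ, 1 ≤ C ∧ ∀ f : ℕ, 1 ≤ f → ∀ n : ℕ, 1 ≤ n → ∀ K L : Set (E n),
    IsSymBody K → IsSymBody L →
      Real.log (coverNum (polar L) ((C * f) • polar K)) ≤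
        C * f ^ 5 * (Real.log (coverNum K L)) ^ (1 + 1 / (f : ℝ)) ∧
      Real.log (coverNum K L) ≤
        C * f ^ 5 * (Real.log (coverNum (polar L) ((C * f)⁻¹ • polar K))) ^
          (1 + 1 / (f : ℝ)) := by
  refine ⟨2 ^ 31, by norm_num, fun f hf n _ K L hK hL => ?_⟩
  have hfR : (1 : ℝ) ≤ f := by exact_mod_cast hf
  have ha : 64 * ((2 * f + 4 : ℕ) : ℝ) ≤ 2 ^ 31 * f := by
    push_cast
    linarith
  exact ⟨NL.lower hf ha K L hK hL, NL.upper hf ha K L hK hL⟩

end Vale.Agent.Results.P126.NearLinearUniform
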