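import Vale.Agent.P126.Assembly

/-!
P126 (duality conjecture for metric entropy): dimension-free duality of entropy with no loss in
the scale and a quadratic loss in the logarithm of the covering numbers.
-/

namespace Vale.Agent.Results.P126.QuadraticDuality

open scoped Pointwise
open Vale.Agent.P126

theorem result : ∃ a b : ℝ, 1 ≤ a ∧ 1 ≤ b ∧ ∀ n : ℕ, 1 ≤ n → ∀ K L : Set (E n),
    IsSymBody K → IsSymBody L →
      Real.log (coverNum (polar L) (a • polar K)) ≤ b * (Real.log (coverNum K L)) ^ 2 ∧
      Real.log (coverNum K L) ≤ b * (Real.log (coverNum (polar L) (a⁻¹ • polar K))) ^ 2 :=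
  ⟨256, 2 ^ 33, by norm_num, by norm_num, fun _ _ K L hK hL =>
    ⟨lower K L hK hL, upper K L hK hL⟩⟩

end Vale.Agent.Results.P126.QuadraticDuality
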